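import Vale.Agent.P154.D6.K4.Data
import Vale.Agent.P154.ApxLemma

set_option maxRecDepth 100000

namespace Vale.Agent.P154.D6.K4

open PolyR Cert InT OutT

/-- The quotient polynomial for `j = 1`. -/
noncomputable def S1 (u : ℝ) : ℝ :=
  (-5 / 4194304 : ℝ) * u ^ 0 + (2061 / 16777216 : ℝ) * u ^ 1 + (6849 / 16777216 : ℝ) * u ^ 2 + (-225189 / 16777216 : ℝ) * u ^ 3 + (4581 / 4194304 : ℝ) * u ^ 4 + (5456329 / 16777216 : ℝ) * u ^ 5 + (-723073 / 1048576 : ℝ) * u ^ 6

/-- Certificate polynomial. -/
def lpu1 : List ITm := [⟨(-102981567382812500000000000000000000000000),0,0⟩,⟨644347378372192382812500000000000000000000,1,0⟩,⟨746092332392923476562500000000000000000000,2,0⟩,⟨(-8193043609135450301150367187500000000000000),3,0⟩,⟨222664540516716779423494584131250000000000,4,0⟩,⟨22144404730898468007042296528525945250937500,5,0⟩,⟨(-15681885284200877409775513583507142504849417),6,0⟩]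

/-- Certificate tree. -/
def tpu1 : OutT := (A (A (A (O l) (A (A (O l) (O l)) (A (A (O l) (O l)) (A (O l) (O l))))) (A (A (A (O l) (O l)) (O l)) (A (O l) (O l)))) (A (A (A (O l) (O l)) (A (O l) (A (O l) (O l)))) (A (A (A (O l) (A (O l) (O l))) (A (A (O l) (O l)) (A (A (O l) (O l)) (A (O l) (O l))))) (A (A (A (A (A (O l) (O l)) (A (O l) (O l))) (A (A (O l) (O l)) (A (O l) (O l)))) (A (A (A (O l) (O l)) (O l)) (A (O l) (O l)))) (A (A (O l) (O l)) (A (O l) (O l)))))))

theorem hpu1 (x : ℝ) (h0 : 0 ≤ x) (h1 : x ≤ 1) : evalIL lpu1 x 0 ≤ 0 :=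
  uni_le 6 65536 lpu1 (by norm_num) (by norm_num) (by decide +kernel)
    (chkOut_sound (uniPb 6 65536 lpu1) tpu1 0 32768 0 32768 (by decide +kernel)) x h0 h1

/-- Certificate polynomial. -/
def lpl1 : List ITm := [⟨(-63919067382812500000000000000000000000000),0,0⟩,⟨(-700090421237182617187500000000000000000000),1,0⟩,⟨(-746092332392923476562500000000000000000000),2,0⟩,⟨8193043609135450301150367187500000000000000,3,0⟩,⟨(-222664540516716779423494584131250000000000),4,0⟩,⟨(-22144404730898468007042296528525945250937500),5,0⟩,⟨15681885284200877409775513583507142504849417,6,0⟩]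

/-- Certificate tree. -/
def tpl1 : OutT := (A (A (A (O l) (O l)) (A (O l) (A (O l) (A (O l) (O l))))) (A (A (A (A (O l) (A (O l) (O l))) (A (A (A (O l) (O l)) (A (O l) (O l))) (A (A (O l) (O l)) (A (O l) (O l))))) (A (A (A (A (O l) (O l)) (A (O l) (O l))) (A (O l) (O l))) (A (A (O l) (O l)) (O l)))) (A (A (A (O l) (O l)) (A (O l) (O l))) (A (A (O l) (O l)) (A (O l) (A (O l) (A (O l) (A (O l) (O l)))))))))

theorem hpl1 (x : ℝ) (h0 : 0 ≤ x) (h1 : x ≤ 1) : evalIL lpl1 x 0 ≤ 0 :=
  uni_le 6 65536 lpl1 (by norm_num) (by norm_num) (by decide +kernel)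
    (chkOut_sound (uniPb 6 65536 lpl1) tpl1 0 32768 0 32768 (by decide +kernel)) x h0 h1

/-- Certificate polynomial. -/
def lnu1 : List ITm := [⟨(-6590820312500000000000000000000000000000000),0,0⟩,⟨(-20619116107910156250000000000000000000000000),1,0⟩,⟨11937477318286775625000000000000000000000000,2,0⟩,⟨65544348873083602409202937500000000000000000,3,0⟩,⟨890658162066867117693978336525000000000000,4,0⟩,⟨(-44288809461796936014084593057051890501875000),5,0⟩,⟨(-15681885284200877409775513583507142504849417),6,0⟩]

/-- Certificate tree. -/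
def tnu1 : OutT := (A (O l) (A (A (O l) (A (O l) (O l))) (A (A (A (O l) (A (O l) (O l))) (A (A (O l) (O l)) (O l))) (A (A (O l) (O l)) (O l)))))

theorem hnu1 (x : ℝ) (h0 : 0 ≤ x) (h1 : x ≤ 1) : evalIL lnu1 x 0 ≤ 0 :=
  uni_le 6 65536 lnu1 (by norm_num) (by norm_num) (by decide +kernel)
    (chkOut_sound (uniPb 6 65536 lnu1) tnu1 0 32768 0 32768 (by decide +kernel)) x h0 h1

/-- Certificate polynomial. -/
def lnl1 : List ITm := [⟨(-4090820312500000000000000000000000000000000),0,0⟩,⟨22402893479589843750000000000000000000000000,1,0⟩,⟨(-11937477318286775625000000000000000000000000),2,0⟩,⟨(-65544348873083602409202937500000000000000000),3,0⟩,⟨(-890658162066867117693978336525000000000000),4,0⟩,⟨44288809461796936014084593057051890501875000,5,0⟩,⟨15681885284200877409775513583507142504849417,6,0⟩]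

/-- Certificate tree. -/
def tnl1 : OutT := (A (A (A (O l) (A (O l) (O l))) (A (A (A (O l) (O l)) (A (O l) (O l))) (A (O l) (O l)))) (A (A (O l) (O l)) (A (O l) (A (O l) (A (O l) (A (O l) (O l)))))))

theorem hnl1 (x : ℝ) (h0 : 0 ≤ x) (h1 : x ≤ 1) : evalIL lnl1 x 0 ≤ 0 :=
  uni_le 6 65536 lnl1 (by norm_num) (by norm_num) (by decide +kernel)
    (chkOut_sound (uniPb 6 65536 lnl1) tnl1 0 32768 0 32768 (by decide +kernel)) x h0 h1

theorem apx1 (u : ℝ) (h0 : -(1669947 / 10000000 : ℝ) ≤ u) (h1 : u ≤ 2 * (1669947 / 10000000 : ℝ)) :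
    |((1 + u)⁻¹) ^ 1 - evalZ Ax.p1 (3 * u) / Ax.D1| ≤ Ax.e1 * |u| ^ Ax.m1 := by
  have hu : 0 < 1 + u := by norm_num at h0 ⊢; linarith
  refine apx_of_S 1 2 _ (S1 u) _ u hu ?_ ?_ ?_
  · simp only [Ax, evalZ_cons, evalZ_nil, S1]
    push_cast
    ring
  · rcases le_total 0 u with hs | hs
    · have hx := hpu1 (u / (2 * (1669947 / 10000000 : ℝ))) (by positivity) (by rw [div_le_one (by norm_num)]; exact h1)
      have e : evalIL lpu1 (u / (2 * (1669947 / 10000000 : ℝ))) 0 = 16384000000000000000000000000000000000000000000 * (S1 u - Ax.e1 * (1 + u) ^ 1) := by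
        simp only [lpu1, evalIL, List.map_cons, List.map_nil, List.sum_cons, List.sum_nil, S1, Ax]
        push_cast
        ring
      rw [e] at hx
      have := cmul_nonpos (by norm_num) hx
      simp only [Ax] at this ⊢
      linarith
    · have hx := hnu1 (-u / (1669947 / 10000000 : ℝ)) (by apply div_nonneg <;> [linarith; norm_num]) (by rw [div_le_one (by norm_num)]; linarith)
      have e : evalIL lnu1 (-u / (1669947 / 10000000 : ℝ)) 0 = 1048576000000000000000000000000000000000000000000 * (S1 u - Ax.e1 * (1 + u) ^ 1) := by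
        simp only [lnu1, evalIL, List.map_cons, List.map_nil, List.sum_cons, List.sum_nil, S1, Ax]
        push_cast
        ring
      rw [e] at hx
      have := cmul_nonpos (by norm_num) hx
      simp only [Ax] at this ⊢
      linarith
  · rcases le_total 0 u with hs | hs
    · have hx := hpl1 (u / (2 * (1669947 / 10000000 : ℝ))) (by positivity) (by rw [div_le_one (by norm_num)]; exact h1)
      have e : evalIL lpl1 (u / (2 * (1669947 / 10000000 : ℝ))) 0 = 16384000000000000000000000000000000000000000000 * (-S1 u - Ax.e1 * (1 + u) ^ 1) := by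
        simp only [lpl1, evalIL, List.map_cons, List.map_nil, List.sum_cons, List.sum_nil, S1, Ax]
        push_cast
        ring
      rw [e] at hx
      have := cmul_nonpos (by norm_num) hx
      simp only [Ax] at this ⊢
      linarith
    · have hx := hnl1 (-u / (1669947 / 10000000 : ℝ)) (by apply div_nonneg <;> [linarith; norm_num]) (by rw [div_le_one (by norm_num)]; linarith)
      have e : evalIL lnl1 (-u / (1669947 / 10000000 : ℝ)) 0 = 1048576000000000000000000000000000000000000000000 * (-S1 u - Ax.e1 * (1 + u) ^ 1) := by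
        simp only [lnl1, evalIL, List.map_cons, List.map_nil, List.sum_cons, List.sum_nil, S1, Ax]
        push_cast
        ring
      rw [e] at hx
      have := cmul_nonpos (by norm_num) hx
      simp only [Ax] at this ⊢
      linarith

/-- The quotient polynomial for `j = 2`. -/
noncomputable def S2 (u : ℝ) : ℝ :=
  (-77 / 8388608 : ℝ) * u ^ 0 + (8953 / 8388608 : ℝ) * u ^ 1 + (71527 / 16777216 : ℝ) * u ^ 2 + (-479017 / 4194304 : ℝ) * u ^ 3 + (-724987 / 8388608 : ℝ) * u ^ 4 + (47663047 / 16777216 : ℝ) * u ^ 5 + (-59232321 / 16777216 : ℝ) * u ^ 6 + (-89598591 / 16777216 : ℝ) * u ^ 7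

/-- Certificate polynomial. -/
def lpu2 : List ITm := [⟨(-69937744140625000000000000000000000000000000000000),0,0⟩,⟨428539548625488281250000000000000000000000000000000,1,0⟩,⟨616881183130506221630859375000000000000000000000000,2,0⟩,⟨(-5576978869152203344790227500000000000000000000000000),3,0⟩,⟨(-1409551602144448354192543707186750000000000000000000),4,0⟩,⟨15475163663713621855979041006172010070725000000000000,5,0⟩,⟨(-6423102944232204765061561962057464257688952045000000),6,0⟩,⟨(-3245039560228709880787394225509062040252278304740333),7,0⟩]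

/-- Certificate tree. -/
def tpu2 : OutT := (A (A (A (O l) (A (A (O l) (O l)) (A (A (O l) (O l)) (A (O l) (O l))))) (A (A (A (O l) (O l)) (O l)) (A (O l) (O l)))) (A (A (A (O l) (O l)) (A (O l) (A (O l) (O l)))) (A (A (A (O l) (O l)) (A (A (O l) (O l)) (A (A (O l) (O l)) (A (O l) (O l))))) (A (A (A (A (A (O l) (O l)) (A (O l) (O l))) (A (A (O l) (O l)) (A (O l) (O l)))) (A (A (O l) (O l)) (A (O l) (O l)))) (A (A (O l) (O l)) (O l))))))

theorem hpu2 (x : ℝ) (h0 : 0 ≤ x) (h1 : x ≤ 1) : evalIL lpu2 x 0 ≤ 0 :=
  uni_le 7 65536 lpu2 (by norm_num) (by norm_num) (by decide +kernel)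
    (chkOut_sound (uniPb 7 65536 lpu2) tpu2 0 32768 0 32768 (by decide +kernel)) x h0 h1

/-- Certificate polynomial. -/
def lpl2 : List ITm := [⟨(-45875244140625000000000000000000000000000000000000),0,0⟩,⟨(-505900169562011718750000000000000000000000000000000),1,0⟩,⟨(-629799996815614672119140625000000000000000000000000),2,0⟩,⟨5576978869152203344790227500000000000000000000000000,3,0⟩,⟨1409551602144448354192543707186750000000000000000000,4,0⟩,⟨(-15475163663713621855979041006172010070725000000000000),5,0⟩,⟨6423102944232204765061561962057464257688952045000000,6,0⟩,⟨3245039560228709880787394225509062040252278304740333,7,0⟩]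

/-- Certificate tree. -/
def tpl2 : OutT := (A (A (A (O l) (O l)) (A (O l) (A (O l) (A (O l) (O l))))) (A (A (A (A (O l) (A (O l) (O l))) (A (A (A (O l) (O l)) (A (O l) (O l))) (A (A (O l) (O l)) (A (O l) (O l))))) (A (A (A (A (O l) (O l)) (O l)) (A (O l) (O l))) (A (O l) (O l)))) (A (A (A (O l) (O l)) (A (O l) (O l))) (A (A (O l) (O l)) (A (O l) (A (O l) (A (O l) (A (O l) (O l)))))))))

theorem hpl2 (x : ℝ) (h0 : 0 ≤ x) (h1 : x ≤ 1) : evalIL lpl2 x 0 ≤ 0 :=
  uni_le 7 65536 lpl2 (by norm_num) (by norm_num) (by decide +kernel)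
    (chkOut_sound (uniPb 7 65536 lpl2) tpl2 0 32768 0 32768 (by decide +kernel)) x h0 h1

/-- Certificate polynomial. -/
def lnu2 : List ITm := [⟨(-8952031250000000000000000000000000000000000000000000),0,0⟩,⟨(-27426531112031250000000000000000000000000000000000000),1,0⟩,⟨19740197860176199092187500000000000000000000000000000,2,0⟩,⟨89231661906435253516643640000000000000000000000000000,3,0⟩,⟨(-11276412817155586833540349657494000000000000000000000),4,0⟩,⟨(-61900654654854487423916164024688040282900000000000000),5,0⟩,⟨(-12846205888464409530123123924114928515377904090000000),6,0⟩,⟨3245039560228709880787394225509062040252278304740333,7,0⟩]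

/-- Certificate tree. -/
def tnu2 : OutT := (A (O l) (A (A (O l) (A (O l) (O l))) (A (A (A (O l) (A (O l) (O l))) (A (A (O l) (O l)) (O l))) (A (A (O l) (O l)) (O l)))))

theorem hnu2 (x : ℝ) (h0 : 0 ≤ x) (h1 : x ≤ 1) : evalIL lnu2 x 0 ≤ 0 :=
  uni_le 7 65536 lnu2 (by norm_num) (by norm_num) (by decide +kernel)
    (chkOut_sound (uniPb 7 65536 lnu2) tnu2 0 32768 0 32768 (by decide +kernel)) x h0 h1

/-- Certificate polynomial. -/
def lnl2 : List ITm := [⟨(-5872031250000000000000000000000000000000000000000000),0,0⟩,⟨32377610851968750000000000000000000000000000000000000,1,0⟩,⟨(-20153599898099669507812500000000000000000000000000000),2,0⟩,⟨(-89231661906435253516643640000000000000000000000000000),3,0⟩,⟨11276412817155586833540349657494000000000000000000000,4,0⟩,⟨61900654654854487423916164024688040282900000000000000,5,0⟩,⟨12846205888464409530123123924114928515377904090000000,6,0⟩,⟨(-3245039560228709880787394225509062040252278304740333),7,0⟩]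

/-- Certificate tree. -/
def tnl2 : OutT := (A (A (A (O l) (A (O l) (O l))) (A (A (A (O l) (O l)) (A (O l) (O l))) (A (O l) (O l)))) (A (A (O l) (O l)) (A (O l) (A (O l) (A (O l) (A (O l) (O l)))))))

theorem hnl2 (x : ℝ) (h0 : 0 ≤ x) (h1 : x ≤ 1) : evalIL lnl2 x 0 ≤ 0 :=
  uni_le 7 65536 lnl2 (by norm_num) (by norm_num) (by decide +kernel)
    (chkOut_sound (uniPb 7 65536 lnl2) tnl2 0 32768 0 32768 (by decide +kernel)) x h0 h1

theorem apx2 (u : ℝ) (h0 : -(1669947 / 10000000 : ℝ) ≤ u) (h1 : u ≤ 2 * (1669947 / 10000000 : ℝ)) :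
    |((1 + u)⁻¹) ^ 2 - evalZ Ax.p2 (3 * u) / Ax.D2| ≤ Ax.e2 * |u| ^ Ax.m2 := by
  have hu : 0 < 1 + u := by norm_num at h0 ⊢; linarith
  refine apx_of_S 2 2 _ (S2 u) _ u hu ?_ ?_ ?_
  · simp only [Ax, evalZ_cons, evalZ_nil, S2]
    push_cast
    ring
  · rcases le_total 0 u with hs | hs
    · have hx := hpu2 (u / (2 * (1669947 / 10000000 : ℝ))) (by positivity) (by rw [div_le_one (by norm_num)]; exact h1)
      have e : evalIL lpu2 (u / (2 * (1669947 / 10000000 : ℝ))) 0 = 1310720000000000000000000000000000000000000000000000000 * (S2 u - Ax.e2 * (1 + u) ^ 2) := by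
        simp only [lpu2, evalIL, List.map_cons, List.map_nil, List.sum_cons, List.sum_nil, S2, Ax]
        push_cast
        ring
      rw [e] at hx
      have := cmul_nonpos (by norm_num) hx
      simp only [Ax] at this ⊢
      linarith
    · have hx := hnu2 (-u / (1669947 / 10000000 : ℝ)) (by apply div_nonneg <;> [linarith; norm_num]) (by rw [div_le_one (by norm_num)]; linarith)
      have e : evalIL lnu2 (-u / (1669947 / 10000000 : ℝ)) 0 = 167772160000000000000000000000000000000000000000000000000 * (S2 u - Ax.e2 * (1 + u) ^ 2) := by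
        simp only [lnu2, evalIL, List.map_cons, List.map_nil, List.sum_cons, List.sum_nil, S2, Ax]
        push_cast
        ring
      rw [e] at hx
      have := cmul_nonpos (by norm_num) hx
      simp only [Ax] at this ⊢
      linarith
  · rcases le_total 0 u with hs | hs
    · have hx := hpl2 (u / (2 * (1669947 / 10000000 : ℝ))) (by positivity) (by rw [div_le_one (by norm_num)]; exact h1)
      have e : evalIL lpl2 (u / (2 * (1669947 / 10000000 : ℝ))) 0 = 1310720000000000000000000000000000000000000000000000000 * (-S2 u - Ax.e2 * (1 + u) ^ 2) := by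
        simp only [lpl2, evalIL, List.map_cons, List.map_nil, List.sum_cons, List.sum_nil, S2, Ax]
        push_cast
        ring
      rw [e] at hx
      have := cmul_nonpos (by norm_num) hx
      simp only [Ax] at this ⊢
      linarith
    · have hx := hnl2 (-u / (1669947 / 10000000 : ℝ)) (by apply div_nonneg <;> [linarith; norm_num]) (by rw [div_le_one (by norm_num)]; linarith)
      have e : evalIL lnl2 (-u / (1669947 / 10000000 : ℝ)) 0 = 167772160000000000000000000000000000000000000000000000000 * (-S2 u - Ax.e2 * (1 + u) ^ 2) := by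
        simp only [lnl2, evalIL, List.map_cons, List.map_nil, List.sum_cons, List.sum_nil, S2, Ax]
        push_cast
        ring
      rw [e] at hx
      have := cmul_nonpos (by norm_num) hx
      simp only [Ax] at this ⊢
      linarith

/-- The quotient polynomial for `j = 3`. -/
noncomputable def S3 (u : ℝ) : ℝ :=
  (-11921 / 8388608 : ℝ) * u ^ 0 + (9997 / 16777216 : ℝ) * u ^ 1 + (2788059 / 8388608 : ℝ) * u ^ 2 + (452983 / 8388608 : ℝ) * u ^ 3 + (-86292691 / 8388608 : ℝ) * u ^ 4 + (135898377 / 16777216 : ℝ) * u ^ 5 + (307264053 / 8388608 : ℝ) * u ^ 6 + (81864469 / 4194304 : ℝ) * u ^ 7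

/-- Certificate polynomial. -/
def lpu3 : List ITm := [⟨(-946680297851562500000000000000000000000000000000000),0,0⟩,⟨(-416750236509887695312500000000000000000000000000000),1,0⟩,⟨11987661055586184115356445312500000000000000000000000,2,0⟩,⟨641313777525155021962213110351562500000000000000000,3,0⟩,⟨(-41943511005164857850484122000898187500000000000000000),4,0⟩,⟨11030818202348954962002740921888728344618750000000000,5,0⟩,⟨16659727410318938955969058877267435516499039592500000,6,0⟩,⟨2964928773066496692405724663292591494137551665938447,7,0⟩]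

/-- Certificate tree. -/
def tpu3 : OutT := (A (A (O l) (A (A (O l) (O l)) (A (A (O l) (A (O l) (O l))) (A (A (O l) (O l)) (A (O l) (O l)))))) (A (A (A (A (O l) (O l)) (O l)) (A (O l) (O l))) (A (O l) (A (O l) (A (O l) (A (O l) (A (O l) (O l))))))))

theorem hpu3 (x : ℝ) (h0 : 0 ≤ x) (h1 : x ≤ 1) : evalIL lpu3 x 0 ≤ 0 :=
  uni_le 7 65536 lpu3 (by norm_num) (by norm_num) (by decide +kernel)
    (chkOut_sound (uniPb 7 65536 lpu3) tpu3 0 32768 0 32768 (by decide +kernel)) x h0 h1

/-- Certificate polynomial. -/
def lpl3 : List ITm := [⟨(-15352172851562500000000000000000000000000000000000),0,0⟩,⟨(-547175706502075195312500000000000000000000000000000),1,0⟩,⟨(-12309602102937183794018554687500000000000000000000000),2,0⟩,⟨(-677155409938532345987730014648437500000000000000000),3,0⟩,⟨41943511005164857850484122000898187500000000000000000,4,0⟩,⟨(-11030818202348954962002740921888728344618750000000000),5,0⟩,⟨(-16659727410318938955969058877267435516499039592500000),6,0⟩,⟨(-2964928773066496692405724663292591494137551665938447),7,0⟩]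

/-- Certificate tree. -/
def tpl3 : OutT := (A (A (A (A (A (O l) (O l)) (O l)) (O l)) (A (O l) (O l))) (A (A (O l) (A (O l) (O l))) (A (A (A (O l) (A (O l) (O l))) (A (A (O l) (A (O l) (O l))) (A (A (O l) (O l)) (O l)))) (A (A (A (O l) (O l)) (O l)) (A (O l) (O l))))))

theorem hpl3 (x : ℝ) (h0 : 0 ≤ x) (h1 : x ≤ 1) : evalIL lpl3 x 0 ≤ 0 :=
  uni_le 7 65536 lpl3 (by norm_num) (by norm_num) (by decide +kernel)
    (chkOut_sound (uniPb 7 65536 lpl3) tpl3 0 32768 0 32768 (by decide +kernel)) x h0 h1

/-- Certificate polynomial. -/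
def lnu3 : List ITm := [⟨(-121175078125000000000000000000000000000000000000000000),0,0⟩,⟨26672015136632812500000000000000000000000000000000000,1,0⟩,⟨383605153778757891691406250000000000000000000000000000,2,0⟩,⟨(-10261020440402480351395409765625000000000000000000000),3,0⟩,⟨(-335548088041318862803872976007185500000000000000000000),4,0⟩,⟨(-44123272809395819848010963687554913378475000000000000),5,0⟩,⟨33319454820637877911938117754534871032998079185000000,6,0⟩,⟨(-2964928773066496692405724663292591494137551665938447),7,0⟩]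

/-- Certificate tree. -/
def tnu3 : OutT := (A (O l) (A (A (O l) (A (O l) (A (O l) (O l)))) (A (A (A (O l) (O l)) (O l)) (A (O l) (O l)))))

theorem hnu3 (x : ℝ) (h0 : 0 ≤ x) (h1 : x ≤ 1) : evalIL lnu3 x 0 ≤ 0 :=
  uni_le 7 65536 lnu3 (by norm_num) (by norm_num) (by decide +kernel)
    (chkOut_sound (uniPb 7 65536 lnu3) tnu3 0 32768 0 32768 (by decide +kernel)) x h0 h1

/-- Certificate polynomial. -/
def lnl3 : List ITm := [⟨(-1965078125000000000000000000000000000000000000000000),0,0⟩,⟨35019245216132812500000000000000000000000000000000000,1,0⟩,⟨(-393907267293989881408593750000000000000000000000000000),2,0⟩,⟨10834486559016517535803680234375000000000000000000000,3,0⟩,⟨335548088041318862803872976007185500000000000000000000,4,0⟩,⟨44123272809395819848010963687554913378475000000000000,5,0⟩,⟨(-33319454820637877911938117754534871032998079185000000),6,0⟩,⟨2964928773066496692405724663292591494137551665938447,7,0⟩]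

/-- Certificate tree. -/
def tnl3 : OutT := (A (A (A (A (O l) (O l)) (O l)) (O l)) (A (O l) (A (O l) (A (O l) (A (O l) (O l))))))

theorem hnl3 (x : ℝ) (h0 : 0 ≤ x) (h1 : x ≤ 1) : evalIL lnl3 x 0 ≤ 0 :=
  uni_le 7 65536 lnl3 (by norm_num) (by norm_num) (by decide +kernel)
    (chkOut_sound (uniPb 7 65536 lnl3) tnl3 0 32768 0 32768 (by decide +kernel)) x h0 h1

theorem apx3 (u : ℝ) (h0 : -(1669947 / 10000000 : ℝ) ≤ u) (h1 : u ≤ 2 * (1669947 / 10000000 : ℝ)) :
    |((1 + u)⁻¹) ^ 3 - evalZ Ax.p3 (3 * u) / Ax.D3| ≤ Ax.e3 * |u| ^ Ax.m3 := by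
  have hu : 0 < 1 + u := by norm_num at h0 ⊢; linarith
  refine apx_of_S 3 2 _ (S3 u) _ u hu ?_ ?_ ?_
  · simp only [Ax, evalZ_cons, evalZ_nil, S3]
    push_cast
    ring
  · rcases le_total 0 u with hs | hs
    · have hx := hpu3 (u / (2 * (1669947 / 10000000 : ℝ))) (by positivity) (by rw [div_le_one (by norm_num)]; exact h1)
      have e : evalIL lpu3 (u / (2 * (1669947 / 10000000 : ℝ))) 0 = 327680000000000000000000000000000000000000000000000000 * (S3 u - Ax.e3 * (1 + u) ^ 3) := by
        simp only [lpu3, evalIL, List.map_cons, List.map_nil, List.sum_cons, List.sum_nil, S3, Ax]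
        push_cast
        ring
      rw [e] at hx
      have := cmul_nonpos (by norm_num) hx
      simp only [Ax] at this ⊢
      linarith
    · have hx := hnu3 (-u / (1669947 / 10000000 : ℝ)) (by apply div_nonneg <;> [linarith; norm_num]) (by rw [div_le_one (by norm_num)]; linarith)
      have e : evalIL lnu3 (-u / (1669947 / 10000000 : ℝ)) 0 = 41943040000000000000000000000000000000000000000000000000 * (S3 u - Ax.e3 * (1 + u) ^ 3) := by
        simp only [lnu3, evalIL, List.map_cons, List.map_nil, List.sum_cons, List.sum_nil, S3, Ax]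
        push_cast
        ring
      rw [e] at hx
      have := cmul_nonpos (by norm_num) hx
      simp only [Ax] at this ⊢
      linarith
  · rcases le_total 0 u with hs | hs
    · have hx := hpl3 (u / (2 * (1669947 / 10000000 : ℝ))) (by positivity) (by rw [div_le_one (by norm_num)]; exact h1)
      have e : evalIL lpl3 (u / (2 * (1669947 / 10000000 : ℝ))) 0 = 327680000000000000000000000000000000000000000000000000 * (-S3 u - Ax.e3 * (1 + u) ^ 3) := by
        simp only [lpl3, evalIL, List.map_cons, List.map_nil, List.sum_cons, List.sum_nil, S3, Ax]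
        push_cast
        ring
      rw [e] at hx
      have := cmul_nonpos (by norm_num) hx
      simp only [Ax] at this ⊢
      linarith
    · have hx := hnl3 (-u / (1669947 / 10000000 : ℝ)) (by apply div_nonneg <;> [linarith; norm_num]) (by rw [div_le_one (by norm_num)]; linarith)
      have e : evalIL lnl3 (-u / (1669947 / 10000000 : ℝ)) 0 = 41943040000000000000000000000000000000000000000000000000 * (-S3 u - Ax.e3 * (1 + u) ^ 3) := by
        simp only [lnl3, evalIL, List.map_cons, List.map_nil, List.sum_cons, List.sum_nil, S3, Ax]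
        push_cast
        ring
      rw [e] at hx
      have := cmul_nonpos (by norm_num) hx
      simp only [Ax] at this ⊢
      linarith

/-- The quotient polynomial for `j = 4`. -/
noncomputable def S4 (u : ℝ) : ℝ :=
  (-121373 / 8388608 : ℝ) * u ^ 0 + (-7959491 / 16777216 : ℝ) * u ^ 1 + (13089245 / 16777216 : ℝ) * u ^ 2 + (373601773 / 16777216 : ℝ) * u ^ 3 + (-49116303 / 4194304 : ℝ) * u ^ 4 + (-1981839349 / 16777216 : ℝ) * u ^ 5 + (-2142374863 / 16777216 : ℝ) * u ^ 6 + (-693019293 / 16777216 : ℝ) * u ^ 7

/-- Certificate polynomial. -/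
def lpu4 : List ITm := [⟨(-56662294921875000000000000000000000000000000000000000),0,0⟩,⟨(-258048990708210937500000000000000000000000000000000000),1,0⟩,⟨88838751083700688783593750000000000000000000000000000,2,0⟩,⟨1081801337097893365691193839062500000000000000000000000,3,0⟩,⟨(-191457231104119738797008914216039171875000000000000000),4,0⟩,⟨(-643460504758805270285923482510806357398575000000000000),5,0⟩,⟨(-232317323681852114553078394396006720506423601635000000),6,0⟩,⟨(-25099446282439100408235149919651892073043553245054759),7,0⟩]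

/-- Certificate tree. -/
def tpu4 : OutT := (A (A (O l) (O l)) (A (A (O l) (A (O l) (A (O l) (A (O l) (O l))))) (A (A (A (A (O l) (O l)) (O l)) (A (O l) (O l))) (A (O l) (O l)))))

theorem hpu4 (x : ℝ) (h0 : 0 ≤ x) (h1 : x ≤ 1) : evalIL lpu4 x 0 ≤ 0 :=
  uni_le 7 65536 lpu4 (by norm_num) (by norm_num) (by decide +kernel)
    (chkOut_sound (uniPb 7 65536 lpu4) tpu4 0 32768 0 32768 (by decide +kernel)) x h0 h1

/-- Certificate polynomial. -/
def lpl4 : List ITm := [⟨(-18733232421875000000000000000000000000000000000000000),0,0⟩,⟨157323762947320312500000000000000000000000000000000000,1,0⟩,⟨(-139300488660785493747656250000000000000000000000000000),2,0⟩,⟨(-1093037127402112037530570009687500000000000000000000000),3,0⟩,⟨190519072388561785877901378315703828125000000000000000,4,0⟩,⟨643460504758805270285923482510806357398575000000000000,5,0⟩,⟨232317323681852114553078394396006720506423601635000000,6,0⟩,⟨25099446282439100408235149919651892073043553245054759,7,0⟩]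

/-- Certificate tree. -/
def tpl4 : OutT := (A (A (A (O l) (A (A (O l) (O l)) (A (O l) (O l)))) (A (A (O l) (O l)) (O l))) (A (A (O l) (O l)) (A (O l) (A (O l) (A (O l) (O l))))))

theorem hpl4 (x : ℝ) (h0 : 0 ≤ x) (h1 : x ≤ 1) : evalIL lpl4 x 0 ≤ 0 :=
  uni_le 7 65536 lpl4 (by norm_num) (by norm_num) (by decide +kernel)
    (chkOut_sound (uniPb 7 65536 lpl4) tpl4 0 32768 0 32768 (by decide +kernel)) x h0 h1

/-- Certificate polynomial. -/
def lnu4 : List ITm := [⟨(-7252773750000000000000000000000000000000000000000000000),0,0⟩,⟨16515135405325500000000000000000000000000000000000000000,1,0⟩,⟨2842840034678422041075000000000000000000000000000000000,2,0⟩,⟨(-17308821393566293851059101425000000000000000000000000000),3,0⟩,⟨(-1531657848832957910376071313728313375000000000000000000),4,0⟩,⟨2573842019035221081143693930043225429594300000000000000,5,0⟩,⟨(-464634647363704229106156788792013441012847203270000000),6,0⟩,⟨25099446282439100408235149919651892073043553245054759,7,0⟩]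

/-- Certificate tree. -/
def tnu4 : OutT := (A (A (O l) (A (O l) (O l))) (A (A (A (O l) (A (O l) (O l))) (A (A (O l) (O l)) (O l))) (A (O l) (O l))))

theorem hnu4 (x : ℝ) (h0 : 0 ≤ x) (h1 : x ≤ 1) : evalIL lnu4 x 0 ≤ 0 :=
  uni_le 7 65536 lnu4 (by norm_num) (by norm_num) (by decide +kernel)
    (chkOut_sound (uniPb 7 65536 lnu4) tnu4 0 32768 0 32768 (by decide +kernel)) x h0 h1

/-- Certificate polynomial. -/
def lnl4 : List ITm := [⟨(-2397853750000000000000000000000000000000000000000000000),0,0⟩,⟨(-10068720828628500000000000000000000000000000000000000000),1,0⟩,⟨(-4457615637145135799925000000000000000000000000000000000),2,0⟩,⟨17488594038433792600489120155000000000000000000000000000,3,0⟩,⟨1524152579108494287023211026525630625000000000000000000,4,0⟩,⟨(-2573842019035221081143693930043225429594300000000000000),5,0⟩,⟨464634647363704229106156788792013441012847203270000000,6,0⟩,⟨(-25099446282439100408235149919651892073043553245054759),7,0⟩]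

/-- Certificate tree. -/
def tnl4 : OutT := (A (O l) (A (O l) (A (O l) (A (O l) (A (O l) (O l))))))

theorem hnl4 (x : ℝ) (h0 : 0 ≤ x) (h1 : x ≤ 1) : evalIL lnl4 x 0 ≤ 0 :=
  uni_le 7 65536 lnl4 (by norm_num) (by norm_num) (by decide +kernel)
    (chkOut_sound (uniPb 7 65536 lnl4) tnl4 0 32768 0 32768 (by decide +kernel)) x h0 h1

theorem apx4 (u : ℝ) (h0 : -(1669947 / 10000000 : ℝ) ≤ u) (h1 : u ≤ 2 * (1669947 / 10000000 : ℝ)) :
    |((1 + u)⁻¹) ^ 4 - evalZ Ax.p4 (3 * u) / Ax.D4| ≤ Ax.e4 * |u| ^ Ax.m4 := by
  have hu : 0 < 1 + u := by norm_num at h0 ⊢; linarith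
  refine apx_of_S 4 2 _ (S4 u) _ u hu ?_ ?_ ?_
  · simp only [Ax, evalZ_cons, evalZ_nil, S4]
    push_cast
    ring
  · rcases le_total 0 u with hs | hs
    · have hx := hpu4 (u / (2 * (1669947 / 10000000 : ℝ))) (by positivity) (by rw [div_le_one (by norm_num)]; exact h1)
      have e : evalIL lpu4 (u / (2 * (1669947 / 10000000 : ℝ))) 0 = 1310720000000000000000000000000000000000000000000000000 * (S4 u - Ax.e4 * (1 + u) ^ 4) := by
        simp only [lpu4, evalIL, List.map_cons, List.map_nil, List.sum_cons, List.sum_nil, S4, Ax]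
        push_cast
        ring
      rw [e] at hx
      have := cmul_nonpos (by norm_num) hx
      simp only [Ax] at this ⊢
      linarith
    · have hx := hnu4 (-u / (1669947 / 10000000 : ℝ)) (by apply div_nonneg <;> [linarith; norm_num]) (by rw [div_le_one (by norm_num)]; linarith)
      have e : evalIL lnu4 (-u / (1669947 / 10000000 : ℝ)) 0 = 167772160000000000000000000000000000000000000000000000000 * (S4 u - Ax.e4 * (1 + u) ^ 4) := by
        simp only [lnu4, evalIL, List.map_cons, List.map_nil, List.sum_cons, List.sum_nil, S4, Ax]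
        push_cast
        ring
      rw [e] at hx
      have := cmul_nonpos (by norm_num) hx
      simp only [Ax] at this ⊢
      linarith
  · rcases le_total 0 u with hs | hs
    · have hx := hpl4 (u / (2 * (1669947 / 10000000 : ℝ))) (by positivity) (by rw [div_le_one (by norm_num)]; exact h1)
      have e : evalIL lpl4 (u / (2 * (1669947 / 10000000 : ℝ))) 0 = 1310720000000000000000000000000000000000000000000000000 * (-S4 u - Ax.e4 * (1 + u) ^ 4) := by
        simp only [lpl4, evalIL, List.map_cons, List.map_nil, List.sum_cons, List.sum_nil, S4, Ax]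
        push_cast
        ring
      rw [e] at hx
      have := cmul_nonpos (by norm_num) hx
      simp only [Ax] at this ⊢
      linarith
    · have hx := hnl4 (-u / (1669947 / 10000000 : ℝ)) (by apply div_nonneg <;> [linarith; norm_num]) (by rw [div_le_one (by norm_num)]; linarith)
      have e : evalIL lnl4 (-u / (1669947 / 10000000 : ℝ)) 0 = 167772160000000000000000000000000000000000000000000000000 * (-S4 u - Ax.e4 * (1 + u) ^ 4) := by
        simp only [lnl4, evalIL, List.map_cons, List.map_nil, List.sum_cons, List.sum_nil, S4, Ax]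
        push_cast
        ring
      rw [e] at hx
      have := cmul_nonpos (by norm_num) hx
      simp only [Ax] at this ⊢
      linarith

/-- The quotient polynomial for `j = 5`. -/
noncomputable def S5 (u : ℝ) : ℝ :=
  (-627491 / 16777216 : ℝ) * u ^ 0 + (-19944871 / 16777216 : ℝ) * u ^ 1 + (18786971 / 16777216 : ℝ) * u ^ 2 + (473986425 / 8388608 : ℝ) * u ^ 3 + (140349105 / 8388608 : ℝ) * u ^ 4 + (-5304999331 / 16777216 : ℝ) * u ^ 5 + (-9557510581 / 16777216 : ℝ) * u ^ 6 + (-800250803 / 2097152 : ℝ) * u ^ 7 + (-1537102101 / 16777216 : ℝ) * u ^ 8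

/-- Certificate polynomial. -/
def lpu5 : List ITm := [⟨(-707448382568359375000000000000000000000000000000000000000000),0,0⟩,⟨(-3374174267168009033203125000000000000000000000000000000000000),1,0⟩,⟨302890279819790596627441406250000000000000000000000000000000,2,0⟩,⟨13623777239723413390086997794433593750000000000000000000000000,3,0⟩,⟨1335599977422399249809160445218715283203125000000000000000000,4,0⟩,⟨(-8614015898807695320943444606015640345422306640625000000000000),5,0⟩,⟨(-5182041942299673683480552582833225054011598648725000000000000),6,0⟩,⟨(-1159324263855797440276330462045408719201266919899635560000000),7,0⟩,⟨(-92966015932675680880137454614515648872721401865732253049461),8,0⟩]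

/-- Certificate tree. -/
def tpu5 : OutT := (A (A (O l) (O l)) (A (A (O l) (A (O l) (A (O l) (A (O l) (O l))))) (A (A (A (A (O l) (O l)) (O l)) (A (O l) (O l))) (A (O l) (O l)))))

theorem hpu5 (x : ℝ) (h0 : 0 ≤ x) (h1 : x ≤ 1) : evalIL lpu5 x 0 ≤ 0 :=
  uni_le 8 65536 lpu5 (by norm_num) (by norm_num) (by decide +kernel)
    (chkOut_sound (uniPb 8 65536 lpu5) tpu5 0 32768 0 32768 (by decide +kernel)) x h0 h1

/-- Certificate polynomial. -/
def lpl5 : List ITm := [⟨(-217221038818359375000000000000000000000000000000000000000000),0,0⟩,⟨1830025340931522216796875000000000000000000000000000000000000,1,0⟩,⟨(-1334349026588527576466308593750000000000000000000000000000000),2,0⟩,⟨(-13968273527681455792741193143066406250000000000000000000000000),3,0⟩,⟨(-1393129031681066153427677001205047216796875000000000000000000),4,0⟩,⟨8610173079944811400155563371330852063281943359375000000000000,5,0⟩,⟨5182041942299673683480552582833225054011598648725000000000000,6,0⟩,⟨1159324263855797440276330462045408719201266919899635560000000,7,0⟩,⟨92966015932675680880137454614515648872721401865732253049461,8,0⟩]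

/-- Certificate tree. -/
def tpl5 : OutT := (A (A (A (A (O l) (O l)) (A (A (O l) (O l)) (A (O l) (O l)))) (A (A (O l) (O l)) (O l))) (A (A (O l) (O l)) (A (O l) (A (O l) (A (O l) (O l))))))

theorem hpl5 (x : ℝ) (h0 : 0 ≤ x) (h1 : x ≤ 1) : evalIL lpl5 x 0 ≤ 0 :=
  uni_le 8 65536 lpl5 (by norm_num) (by norm_num) (by decide +kernel)
    (chkOut_sound (uniPb 8 65536 lpl5) tpl5 0 32768 0 32768 (by decide +kernel)) x h0 h1

/-- Certificate polynomial. -/
def lnu5 : List ITm := [⟨(-181106785937500000000000000000000000000000000000000000000000000),0,0⟩,⟨431894306197505156250000000000000000000000000000000000000000000,1,0⟩,⟨19384977908466598184156250000000000000000000000000000000000000,2,0⟩,⟨(-435960871671149228482783929421875000000000000000000000000000000),3,0⟩,⟨21369599638758387996946567123499444531250000000000000000000000,4,0⟩,⟨68912127190461562567547556848125122763378453125000000000000000,5,0⟩,⟨(-20728167769198694733922210331332900216046394594900000000000000),6,0⟩,⟨2318648527711594880552660924090817438402533839799271120000000,7,0⟩,⟨(-92966015932675680880137454614515648872721401865732253049461),8,0⟩]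

/-- Certificate tree. -/
def tnu5 : OutT := (A (A (O l) (A (O l) (O l))) (A (A (A (O l) (A (O l) (O l))) (A (A (O l) (O l)) (O l))) (A (O l) (O l))))

theorem hnu5 (x : ℝ) (h0 : 0 ≤ x) (h1 : x ≤ 1) : evalIL lnu5 x 0 ≤ 0 :=
  uni_le 8 65536 lnu5 (by norm_num) (by norm_num) (by decide +kernel)
    (chkOut_sound (uniPb 8 65536 lnu5) tnu5 0 32768 0 32768 (by decide +kernel)) x h0 h1

/-- Certificate polynomial. -/
def lnl5 : List ITm := [⟨(-55608585937500000000000000000000000000000000000000000000000000),0,0⟩,⟨(-234243243639234843750000000000000000000000000000000000000000000),1,0⟩,⟨(-85398337701665764893843750000000000000000000000000000000000000),2,0⟩,⟨446984752885806585367718180578125000000000000000000000000000000,3,0⟩,⟨(-22290064506897058454842832019280755468750000000000000000000000),4,0⟩,⟨(-68881384639558491201244506970646816506255546875000000000000000),5,0⟩,⟨20728167769198694733922210331332900216046394594900000000000000,6,0⟩,⟨(-2318648527711594880552660924090817438402533839799271120000000),7,0⟩,⟨92966015932675680880137454614515648872721401865732253049461,8,0⟩]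

/-- Certificate tree. -/
def tnl5 : OutT := (A (O l) (A (O l) (A (O l) (A (O l) (A (O l) (O l))))))

theorem hnl5 (x : ℝ) (h0 : 0 ≤ x) (h1 : x ≤ 1) : evalIL lnl5 x 0 ≤ 0 :=
  uni_le 8 65536 lnl5 (by norm_num) (by norm_num) (by decide +kernel)
    (chkOut_sound (uniPb 8 65536 lnl5) tnl5 0 32768 0 32768 (by decide +kernel)) x h0 h1

theorem apx5 (u : ℝ) (h0 : -(1669947 / 10000000 : ℝ) ≤ u) (h1 : u ≤ 2 * (1669947 / 10000000 : ℝ)) :
    |((1 + u)⁻¹) ^ 5 - evalZ Ax.p5 (3 * u) / Ax.D5| ≤ Ax.e5 * |u| ^ Ax.m5 := by
  have hu : 0 < 1 + u := by norm_num at h0 ⊢; linarith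
  refine apx_of_S 5 2 _ (S5 u) _ u hu ?_ ?_ ?_
  · simp only [Ax, evalZ_cons, evalZ_nil, S5]
    push_cast
    ring
  · rcases le_total 0 u with hs | hs
    · have hx := hpu5 (u / (2 * (1669947 / 10000000 : ℝ))) (by positivity) (by rw [div_le_one (by norm_num)]; exact h1)
      have e : evalIL lpu5 (u / (2 * (1669947 / 10000000 : ℝ))) 0 = 6553600000000000000000000000000000000000000000000000000000000 * (S5 u - Ax.e5 * (1 + u) ^ 5) := by
        simp only [lpu5, evalIL, List.map_cons, List.map_nil, List.sum_cons, List.sum_nil, S5, Ax]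
        push_cast
        ring
      rw [e] at hx
      have := cmul_nonpos (by norm_num) hx
      simp only [Ax] at this ⊢
      linarith
    · have hx := hnu5 (-u / (1669947 / 10000000 : ℝ)) (by apply div_nonneg <;> [linarith; norm_num]) (by rw [div_le_one (by norm_num)]; linarith)
      have e : evalIL lnu5 (-u / (1669947 / 10000000 : ℝ)) 0 = 1677721600000000000000000000000000000000000000000000000000000000 * (S5 u - Ax.e5 * (1 + u) ^ 5) := by
        simp only [lnu5, evalIL, List.map_cons, List.map_nil, List.sum_cons, List.sum_nil, S5, Ax]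
        push_cast
        ring
      rw [e] at hx
      have := cmul_nonpos (by norm_num) hx
      simp only [Ax] at this ⊢
      linarith
  · rcases le_total 0 u with hs | hs
    · have hx := hpl5 (u / (2 * (1669947 / 10000000 : ℝ))) (by positivity) (by rw [div_le_one (by norm_num)]; exact h1)
      have e : evalIL lpl5 (u / (2 * (1669947 / 10000000 : ℝ))) 0 = 6553600000000000000000000000000000000000000000000000000000000 * (-S5 u - Ax.e5 * (1 + u) ^ 5) := by
        simp only [lpl5, evalIL, List.map_cons, List.map_nil, List.sum_cons, List.sum_nil, S5, Ax]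
        push_cast
        ring
      rw [e] at hx
      have := cmul_nonpos (by norm_num) hx
      simp only [Ax] at this ⊢
      linarith
    · have hx := hnl5 (-u / (1669947 / 10000000 : ℝ)) (by apply div_nonneg <;> [linarith; norm_num]) (by rw [div_le_one (by norm_num)]; linarith)
      have e : evalIL lnl5 (-u / (1669947 / 10000000 : ℝ)) 0 = 1677721600000000000000000000000000000000000000000000000000000000 * (-S5 u - Ax.e5 * (1 + u) ^ 5) := by
        simp only [lnl5, evalIL, List.map_cons, List.map_nil, List.sum_cons, List.sum_nil, S5, Ax]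
        push_cast
        ring
      rw [e] at hx
      have := cmul_nonpos (by norm_num) hx
      simp only [Ax] at this ⊢
      linarith

theorem hAx : Ax.OK (-(1669947 / 10000000 : ℝ)) (2 * (1669947 / 10000000 : ℝ)) where
  e10 := by simp only [Ax]; norm_num
  e20 := by simp only [Ax]; norm_num
  e30 := by simp only [Ax]; norm_num
  e40 := by simp only [Ax]; norm_num
  e50 := by simp only [Ax]; norm_num
  h1 := fun u a b => by simpa using apx1 u a b
  h2 := apx2
  h3 := apx3
  h4 := apx4
  h5 := apx5

end Vale.Agent.P154.D6.K4
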