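import Vale.Agent.P154.D6.K4.Data
import Vale.Agent.P154.Check2

namespace Vale.Agent.P154.D6.K4

open Cert

/-- Chart (0, 0). -/
def P00 : Pb := chartPb false false Nd w G []

/-- Chart (0, 1). -/
def P01 : Pb := chartPb false true Nd w G []

/-- Chart (1, 0). -/
def P10 : Pb := chartPb true false Nd w G []

/-- Chart (1, 1). -/
def P11 : Pb := chartPb true true Nd w G []

/-- The offset. -/
def KK : ℕ := 2436328502849999770088345596968797077719056714398751881716976614303237172691606525616403766470502564806326229057852167045864792466300773511644496824078163354882819424989118257467697413872513412088199898369804594718421399481348718736436590903867241403206934700776069386770457147497978527744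

end Vale.Agent.P154.D6.K4
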