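import Vale.Agent.P154.D6.K4.T00_r00
import Vale.Agent.P154.D6.K4.T00_r01
import Vale.Agent.P154.D6.K4.T00_r1
import Vale.Agent.P154.D6.K4.T01_r0
import Vale.Agent.P154.D6.K4.T01_r1
import Vale.Agent.P154.D6.K4.T10_r
import Vale.Agent.P154.D6.K4.T11_r

namespace Vale.Agent.P154.D6.K4

open Cert

theorem s00_r0 : Sound P00 0 16384 0 32768 :=
  sound_splitA P00 0 8192 16384 0 32768 rfl s00_r00 s00_r01

theorem s00_r : Sound P00 0 32768 0 32768 :=
  sound_splitA P00 0 16384 32768 0 32768 rfl s00_r0 s00_r1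

theorem s01_r : Sound P01 0 32768 0 32768 :=
  sound_splitA P01 0 16384 32768 0 32768 rfl s01_r0 s01_r1

end Vale.Agent.P154.D6.K4
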